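import Vale.Agent.P224.Final

namespace Vale.Agent.Results.P224.DimFreeGap

open scoped ContDiff Manifold
open Set Vale.Agent.P224

theorem result {m : ℕ} (hm : 2 ≤ m) {M : Type*} [TopologicalSpace M] [ChartedSpace (Euc m) M]
    [IsManifold 𝓘(ℝ, Euc m) ∞ M] [T2Space M] [CompactSpace M] [ConnectedSpace M]
    (F : M → Euc (m + 2)) (hF : IsSphereImmersion (Euc m) F) (hmin : IsMinimal m F)
    (hne : ∀ a : Euc (m + 2), a ≠ 0 → range F ≠ equator a) :
    ENNReal.ofReal (61 / 60 * sphereVol m) ≤ vol m F :=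
  main (by omega) F hF.smooth hF.unit hF.inj hmin hne

end Vale.Agent.Results.P224.DimFreeGap
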